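import Vale.Agent.Lib.P018.Good

/-!
# P018: the polynomials attached to the surviving residue classes, with coprimality
-/

namespace Vale.Agent.Lib.P018

open Polynomial Finset

/-- The polynomial attached to a surviving residue class, with the additional information
that none of its values is divisible by a prime in `P`. -/
theorem exists_good_poly_strong (f : ℤ[X]) (hf : Irreducible (f.map (Int.castRingHom ℚ))) (k k' : ℕ)
    (hk : 2 ≤ k) (hkk' : k ≤ k') (P : Finset Nat.Primes)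
    (hP1 : ∀ p : Nat.Primes, p ∉ P → ∀ j : ℕ, 1 ≤ j → rho f ((p : ℕ) ^ j) ≤ f.natDegree)
    (hP2 : ∀ p : Nat.Primes, p ∉ P → f.natDegree < (p : ℕ))
    (b : ℕ) (hb : Survives f k' P b) :
    ∃ h : ℤ[X], h.natDegree = f.natDegree ∧ Irreducible (h.map (Int.castRingHom ℚ)) ∧
      (∀ p : ℕ, p.Prime → rho h p < p) ∧
      (∀ m : ℕ, IsPowerFree k (h.eval (m : ℤ)) →
        IsPowerFree k' (f.eval ((sieveMod k' P * m + b : ℕ) : ℤ))) ∧
      1 - (∑' p, major f.natDegree p - ∑ p ∈ P, major f.natDegree p) ≤ density h k ∧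
      (∀ p : Nat.Primes, p ∈ P → ∀ m : ℤ, ¬ (((p : ℕ) : ℤ)) ∣ h.eval m) := by
  have hQpos : 0 < sieveMod k' P := sieveMod_pos k' P
  have hQ0 : ((sieveMod k' P : ℕ) : ℤ) ≠ 0 := by exact_mod_cast hQpos.ne'
  have hDpos : 0 < Int.gcd (f.eval (b : ℤ)) ((sieveMod k' P : ℕ) : ℤ) :=
    Int.gcd_pos_of_ne_zero_right _ hQ0
  have hD0 : ((Int.gcd (f.eval (b : ℤ)) ((sieveMod k' P : ℕ) : ℤ) : ℕ) : ℤ) ≠ 0 := by
    exact_mod_cast hDpos.ne'
  have hD1 : ((Int.gcd (f.eval (b : ℤ)) ((sieveMod k' P : ℕ) : ℤ) : ℕ) : ℤ) ∣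
      f.eval (b : ℤ) := Int.gcd_dvd_left _ _
  have hD2 : ((Int.gcd (f.eval (b : ℤ)) ((sieveMod k' P : ℕ) : ℤ) : ℕ) : ℤ) ∣
      ((sieveMod k' P : ℕ) : ℤ) := Int.gcd_dvd_right _ _
  obtain ⟨h, hh⟩ := exists_shift f _ (b : ℤ) _ hD1 hD2
  have hev := shift_eval hh
  have hG1 : ∀ p : Nat.Primes, p ∈ P → ∀ m : ℤ, ¬ (((p : ℕ) : ℤ)) ∣ h.eval m := by
    intro p hp m
    apply not_dvd_shift hQ0 hh (p : ℕ) p.2 k' _ _ m
    · have h1 := Int.natCast_dvd_natCast.mpr (dvd_sieveMod k' P p hp)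
      push_cast at h1
      exact h1
    · have h1 := hb p hp
      push_cast at h1
      exact h1
  have hG0 : ∀ (p : ℕ) (hp : p.Prime), (⟨p, hp⟩ : Nat.Primes) ∉ P → ¬ (p : ℤ) ∣
      ((Int.gcd (f.eval (b : ℤ)) ((sieveMod k' P : ℕ) : ℤ) : ℕ) : ℤ) := by
    intro p hp hnP hd
    apply hnP
    apply mem_of_dvd_sieveMod k' P p hp
    exact Int.natCast_dvd_natCast.mp (dvd_trans hd hD2)
  have hrho0 : ∀ p : Nat.Primes, p ∈ P → ∀ j : ℕ, 1 ≤ j → rho h ((p : ℕ) ^ j) = 0 := by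
    intro p hp j hj
    unfold rho
    rw [Finset.card_eq_zero, Finset.filter_eq_empty_iff]
    intro a _ hd
    apply hG1 p hp (a : ℤ)
    refine dvd_trans ?_ hd
    push_cast
    exact dvd_pow_self _ (by omega)
  have hrhole : ∀ p : Nat.Primes, p ∉ P → ∀ j : ℕ,
      rho h ((p : ℕ) ^ j) ≤ rho f ((p : ℕ) ^ j) := by
    intro p hp j
    have hcopQ : Nat.Coprime (sieveMod k' P) ((p : ℕ) ^ j) := by
      apply Nat.Coprime.pow_right
      rw [Nat.coprime_comm, Nat.Prime.coprime_iff_not_dvd p.2]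
      intro hd
      exact hp (mem_of_dvd_sieveMod k' P (p : ℕ) p.2 hd)
    unfold rho
    apply Finset.card_le_card_of_injOn (fun a => (sieveMod k' P * a + b) % (p : ℕ) ^ j)
    · intro a ha
      simp only [coe_filter, mem_range, Set.mem_ofPred_eq] at ha ⊢
      refine ⟨Nat.mod_lt _ (pow_pos p.2.pos j), ?_⟩
      rw [dvd_eval_mod f _ _ (dvd_refl _)]
      have h1 := hev (a : ℤ)
      have h2 : ((sieveMod k' P * a + b : ℕ) : ℤ) =
          ((sieveMod k' P : ℕ) : ℤ) * (a : ℤ) + (b : ℤ) := by push_cast; ring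
      rw [h2, h1]
      exact Dvd.dvd.mul_left ha.2 _
    · intro a ha a' ha' hmod
      simp only [coe_filter, mem_range, Set.mem_ofPred_eq] at ha ha'
      simp only at hmod
      have h1 : sieveMod k' P * a + b ≡ sieveMod k' P * a' + b [MOD (p : ℕ) ^ j] :=
        hmod
      have h2 : sieveMod k' P * a ≡ sieveMod k' P * a' [MOD (p : ℕ) ^ j] :=
        Nat.ModEq.add_right_cancel' b h1
      have h3 : a ≡ a' [MOD (p : ℕ) ^ j] :=
        Nat.ModEq.cancel_left_of_coprime (by rwa [Nat.coprime_comm] at hcopQ) h2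
      exact Nat.ModEq.eq_of_lt_of_lt h3 ha.1 ha'.1
  have hirr := shift_irreducible hh hQ0 hD0 hf
  refine ⟨h, shift_natDegree hh hQ0 hD0, hirr, ?_, ?_, ?_, hG1⟩
  · intro p hp
    by_cases hmem : (⟨p, hp⟩ : Nat.Primes) ∈ P
    · have h1 := hrho0 ⟨p, hp⟩ hmem 1 le_rfl
      simp only [pow_one] at h1
      rw [h1]
      exact hp.pos
    · have h1 := hrhole ⟨p, hp⟩ hmem 1
      have h2 := hP1 ⟨p, hp⟩ hmem 1 le_rfl
      have h3 := hP2 ⟨p, hp⟩ hmem
      simp only [pow_one] at h1 h2 h3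
      omega
  · intro m hm
    have h1 := hev (m : ℤ)
    have h2 : ((sieveMod k' P * m + b : ℕ) : ℤ) =
        ((sieveMod k' P : ℕ) : ℤ) * (m : ℤ) + (b : ℤ) := by push_cast; ring
    rw [h2, h1]
    refine ⟨mul_ne_zero hD0 hm.1, ?_⟩
    intro p hp hdvd
    by_cases hmem : (⟨p, hp⟩ : Nat.Primes) ∈ P
    · have hcop : IsCoprime ((p : ℤ) ^ k') (h.eval (m : ℤ)) := by
        apply IsCoprime.pow_left
        exact (Nat.prime_iff_prime_int.mp hp).irreducible.coprime_iff_not_dvd.mpr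
          (hG1 ⟨p, hp⟩ hmem (m : ℤ))
      have h3 := hcop.dvd_of_dvd_mul_right hdvd
      apply hb ⟨p, hp⟩ hmem
      push_cast
      exact dvd_trans h3 hD1
    · have hcop : IsCoprime ((p : ℤ) ^ k')
          ((Int.gcd (f.eval (b : ℤ)) ((sieveMod k' P : ℕ) : ℤ) : ℕ) : ℤ) := by
        apply IsCoprime.pow_left
        exact (Nat.prime_iff_prime_int.mp hp).irreducible.coprime_iff_not_dvd.mpr
          (hG0 p hp hmem)
      have h3 := hcop.dvd_of_dvd_mul_left hdvd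
      exact hm.2 p hp (dvd_trans (pow_dvd_pow _ hkk') h3)
  · have key := tprod_lower_bound
      (fun p : Nat.Primes => (rho h ((p : ℕ) ^ k) : ℝ) / (((p : ℕ) ^ k : ℕ) : ℝ))
      (major f.natDegree) P ?_ ?_ (multipliable_factor h hirr k hk) (major_nonneg _)
      (summable_major _) ?_ ?_
    · exact key
    · intro p; positivity
    · intro p
      have h1 : (rho h ((p : ℕ) ^ k) : ℝ) ≤ (((p : ℕ) ^ k : ℕ) : ℝ) := by
        exact_mod_cast rho_le h _
      have h2 : (0 : ℝ) < (((p : ℕ) ^ k : ℕ) : ℝ) := by exact_mod_cast pow_pos p.2.pos k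
      rw [div_le_one h2]; exact h1
    · intro p hp
      rw [hrho0 p hp k (by omega)]; simp
    · intro p hp
      exact rho_div_le_major h _ p k hk (le_trans (hrhole p hp k) (hP1 p hp k (by omega)))

end Vale.Agent.Lib.P018
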