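import Vale.Agent.Lib.P018.Closure
import Vale.Agent.Lib.P018.Strong.Good

/-!
# P018: a stronger form of the reduction

The pair `(d, k')` is valid as soon as, at one exponent `2 ≤ k ≤ k'`, a crude lower bound
`S(N) ≥ (1 - η) N` for `k`-power-free values holds for the polynomials of degree `d` none of
whose values has a prime factor `≤ T` and whose predicted density is at least `1 - δ`, where
`T` and `δ` may depend on `η`.
-/

namespace Vale.Agent.Lib.P018

open Polynomial Finset Filter Topology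

/-- Lower bound for the count at exponent `k'`, from a crude lower bound `S(N) ≥ (1 - η) N`
at exponent `k ≤ k'` for the polynomials of the same degree none of whose values has a prime
factor `≤ T`, without fixed prime divisor and with predicted density at least `1 - δ`. -/
theorem lower_bound_crude (k k' : ℕ) (hk : 2 ≤ k) (hkk' : k ≤ k') (T : ℕ) (δ : ℝ) (hδ : 0 < δ)
    (f : ℤ[X]) (η : ℝ)
    (hV : ∀ g : ℤ[X], g.natDegree = f.natDegree → Irreducible (g.map (Int.castRingHom ℚ)) →
      (∀ p : ℕ, p.Prime → p ≤ T → ∀ m : ℤ, ¬ ((p : ℤ) ∣ g.eval m)) →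
      (∀ p : ℕ, p.Prime → rho g p < p) → 1 - δ ≤ density g k →
      ∀ᶠ N : ℕ in atTop, (1 - η) * (N : ℝ) ≤ (countPowerFree g k N : ℝ))
    (hf : Irreducible (f.map (Int.castRingHom ℚ)))
    (ε : ℝ) (hε : 0 < ε) (hηε : η ≤ ε / 4) :
    ∀ᶠ N : ℕ in atTop, (density f k' - ε) * (N : ℝ) ≤ (countPowerFree f k' N : ℝ) := by
  classical
  obtain ⟨B, hB⟩ := exists_bound_rho f hf
  have ht1 := tendsto_partialDensity f hf k' (by omega)
  have ht2 := tendsto_tail_major f.natDegree
  have ht3 : Tendsto (fun P : Finset Nat.Primes => partialDensity f k' P *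
      (1 - (∑' p, major f.natDegree p - ∑ p ∈ P, major f.natDegree p))) atTop
      (𝓝 (density f k')) := by
    have := ht1.mul ((tendsto_const_nhds (x := (1 : ℝ))).sub ht2)
    simpa using this
  have hfin := finite_primes_le (max B (max f.natDegree T))
  have hev1 : ∀ᶠ P : Finset Nat.Primes in atTop, hfin.toFinset ⊆ P :=
    eventually_ge_atTop hfin.toFinset
  have hev2 := ht3.eventually
    (eventually_gt_nhds (show density f k' - ε / 2 < density f k' by linarith))
  have hev3 := ht2.eventually (eventually_lt_nhds hδ)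
  obtain ⟨P, hPsub, hPval, hPδ⟩ := (hev1.and (hev2.and hev3)).exists
  have hPout : ∀ p : Nat.Primes, p ∉ P → max B (max f.natDegree T) < (p : ℕ) := by
    intro p hp
    by_contra hle
    rw [not_lt] at hle
    apply hp
    apply hPsub
    rw [Set.Finite.mem_toFinset]
    exact hle
  have hP1 : ∀ p : Nat.Primes, p ∉ P → ∀ j : ℕ, 1 ≤ j →
      rho f ((p : ℕ) ^ j) ≤ f.natDegree := by
    intro p hp j hj
    exact hB p p.2 (lt_of_le_of_lt (le_max_left _ _) (hPout p hp)) j hj
  have hP2 : ∀ p : Nat.Primes, p ∉ P → f.natDegree < (p : ℕ) := by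
    intro p hp
    exact lt_of_le_of_lt (le_trans (le_max_left _ _) (le_max_right _ _)) (hPout p hp)
  have hP3 : ∀ (p : ℕ) (hp : p.Prime), p ≤ T → (⟨p, hp⟩ : Nat.Primes) ∈ P := by
    intro p hp hpT
    by_contra hnot
    have h1 := hPout ⟨p, hp⟩ hnot
    have h2 : T ≤ max B (max f.natDegree T) := le_trans (le_max_right _ _) (le_max_right _ _)
    have h3 : T < p := lt_of_le_of_lt h2 h1
    omega
  have hQpos : 0 < sieveMod k' P := sieveMod_pos k' P
  have hex : ∀ b : ℕ, ∃ h : ℤ[X],
      b ∈ (range (sieveMod k' P)).filter (Survives f k' P) →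
      (h.natDegree = f.natDegree ∧ Irreducible (h.map (Int.castRingHom ℚ)) ∧
        (∀ p : ℕ, p.Prime → rho h p < p) ∧
        (∀ m : ℕ, IsPowerFree k (h.eval (m : ℤ)) →
          IsPowerFree k' (f.eval ((sieveMod k' P * m + b : ℕ) : ℤ))) ∧
        1 - (∑' p, major f.natDegree p - ∑ p ∈ P, major f.natDegree p) ≤ density h k ∧
        (∀ p : Nat.Primes, p ∈ P → ∀ m : ℤ, ¬ (((p : ℕ) : ℤ)) ∣ h.eval m)) := by
    intro b
    by_cases hb : b ∈ (range (sieveMod k' P)).filter (Survives f k' P)
    · obtain ⟨h, hh⟩ := exists_good_poly_strong f hf k k' hk hkk' P hP1 hP2 b (mem_filter.mp hb).2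
      exact ⟨h, fun _ => hh⟩
    · exact ⟨f, fun hb' => absurd hb' hb⟩
  choose h hh using hex
  have hσ0 : 0 ≤ ∑' p, major f.natDegree p - ∑ p ∈ P, major f.natDegree p := by
    rw [sub_nonneg]
    exact (summable_major f.natDegree).sum_le_tsum _ (fun p _ => major_nonneg _ p)
  have hasym : ∀ b ∈ (range (sieveMod k' P)).filter (Survives f k' P),
      ∀ᶠ Y : ℕ in atTop,
        (1 - (∑' p, major f.natDegree p - ∑ p ∈ P, major f.natDegree p) - ε / 4) * (Y : ℝ) ≤
          (countPowerFree (h b) k Y : ℝ) := by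
    intro b hb
    obtain ⟨hd, hirr, hloc, -, hden, hcop⟩ := hh b hb
    have hA2 := hV (h b) hd hirr (fun p hp hpT m => hcop ⟨p, hp⟩ (hP3 p hp hpT) m) hloc
      (by linarith)
    filter_upwards [hA2] with Y hY
    have hYr : (0 : ℝ) ≤ (Y : ℝ) := Nat.cast_nonneg Y
    refine le_trans ?_ hY
    apply mul_le_mul_of_nonneg_right _ hYr
    linarith
  have hall := (eventually_all_finset
    ((range (sieveMod k' P)).filter (Survives f k' P))).mpr hasym
  have htend : Tendsto (fun N : ℕ => N / sieveMod k' P - 1) atTop atTop := by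
    rw [tendsto_atTop]
    intro Y0
    filter_upwards [eventually_ge_atTop ((Y0 + 1) * sieveMod k' P)] with N hN
    have : Y0 + 1 ≤ N / sieveMod k' P := (Nat.le_div_iff_mul_le hQpos).mpr hN
    omega
  have hallN := htend.eventually hall
  obtain ⟨N1, hN1⟩ := exists_nat_ge (8 * (sieveMod k' P : ℝ) / ε)
  filter_upwards [hallN, eventually_ge_atTop N1] with N hN hNN1
  have hcount := lower_count f k k' P h (fun b hb => (hh b hb).2.2.2.1) N
  have hsum : (((range (sieveMod k' P)).filter (Survives f k' P)).card : ℝ) *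
      ((1 - (∑' p, major f.natDegree p - ∑ p ∈ P, major f.natDegree p) - ε / 4) *
        ((N / sieveMod k' P - 1 : ℕ) : ℝ)) ≤
      ∑ b ∈ (range (sieveMod k' P)).filter (Survives f k' P),
        (countPowerFree (h b) k (N / sieveMod k' P - 1) : ℝ) := by
    rw [← nsmul_eq_mul, ← Finset.sum_const]
    exact Finset.sum_le_sum (fun b hb => hN b hb)
  have hcountR : (∑ b ∈ (range (sieveMod k' P)).filter (Survives f k' P),
      (countPowerFree (h b) k (N / sieveMod k' P - 1) : ℝ)) ≤
      (countPowerFree f k' N : ℝ) := by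
    exact_mod_cast hcount
  rw [card_survives_real] at hsum
  have hY1 : (N : ℝ) / (sieveMod k' P : ℝ) - 2 ≤
      ((N / sieveMod k' P - 1 : ℕ) : ℝ) := by
    have h1 : N < N / sieveMod k' P * sieveMod k' P + sieveMod k' P :=
      Nat.lt_div_mul_add hQpos
    have h2 : N / sieveMod k' P ≤ (N / sieveMod k' P - 1) + 1 := by omega
    have h1r : (N : ℝ) < ((N / sieveMod k' P : ℕ) : ℝ) * (sieveMod k' P : ℝ) +
        (sieveMod k' P : ℝ) := by exact_mod_cast h1
    have h2r : ((N / sieveMod k' P : ℕ) : ℝ) ≤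
        ((N / sieveMod k' P - 1 : ℕ) : ℝ) + 1 := by exact_mod_cast h2
    have hQr : (0 : ℝ) < (sieveMod k' P : ℝ) := by exact_mod_cast hQpos
    have h3 : (N : ℝ) / (sieveMod k' P : ℝ) < ((N / sieveMod k' P : ℕ) : ℝ) + 1 := by
      rw [div_lt_iff₀ hQr]; nlinarith
    linarith
  exact final_arith (density f k') ε (partialDensity f k' P)
    (∑' p, major f.natDegree p - ∑ p ∈ P, major f.natDegree p) (sieveMod k' P : ℝ) (N : ℝ)
    ((N / sieveMod k' P - 1 : ℕ) : ℝ) (countPowerFree f k' N : ℝ) hε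
    (partialDensity_nonneg f k' P) (partialDensity_le_one f k' P) hσ0
    (by exact_mod_cast hQpos) (le_trans hN1 (by exact_mod_cast hNN1)) hY1 hPval
    (le_trans hsum hcountR) (Nat.cast_nonneg _)

/-- Crude reduction: let `2 ≤ k ≤ k'`. Suppose that for every `η > 0` there are `T` and `δ > 0`
such that every polynomial `g` of degree `d`, irreducible over the rationals, none of whose
values has a prime factor `≤ T`, without fixed prime divisor and with predicted density at
least `1 - δ` at exponent `k`, has at least `(1 - η) N` values `g(n)`, `1 ≤ n ≤ N`, that are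
`k`-power-free, for all large `N`. Then the pair `(d, k')` is valid. -/
theorem validPair_crude (d k k' : ℕ) (hk : 2 ≤ k) (hkk' : k ≤ k')
    (hV : ∀ η : ℝ, 0 < η → ∃ T : ℕ, ∃ δ : ℝ, 0 < δ ∧
      ∀ g : ℤ[X], g.natDegree = d → Irreducible (g.map (Int.castRingHom ℚ)) →
        (∀ p : ℕ, p.Prime → p ≤ T → ∀ m : ℤ, ¬ ((p : ℤ) ∣ g.eval m)) →
        (∀ p : ℕ, p.Prime → rho g p < p) → 1 - δ ≤ density g k →
        ∀ᶠ N : ℕ in atTop, (1 - η) * (N : ℝ) ≤ (countPowerFree g k N : ℝ)) :
    ValidPair d k' := by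
  intro f hdeg hf _
  subst hdeg
  unfold HasAsymptotic
  rw [Metric.tendsto_nhds]
  intro ε hε
  obtain ⟨T, δ, hδ, hT⟩ := hV (ε / 8) (by linarith)
  have hup := upper_bound f hf k' (by omega) (ε / 2) (by linarith)
  have hlow := lower_bound_crude k k' hk hkk' T δ hδ f (ε / 8) hT hf (ε / 2) (by linarith)
    (by linarith)
  filter_upwards [hup, hlow, eventually_gt_atTop 0] with N h1 h2 hN
  have hNr : (0 : ℝ) < (N : ℝ) := by exact_mod_cast hN
  have e1 : density f k' - ε / 2 ≤ (countPowerFree f k' N : ℝ) / (N : ℝ) := by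
    rw [le_div_iff₀ hNr]; exact h2
  have e2 : (countPowerFree f k' N : ℝ) / (N : ℝ) ≤ density f k' + ε / 2 := by
    rw [div_le_iff₀ hNr]; exact h1
  rw [Real.dist_eq, abs_lt]
  constructor <;> linarith

end Vale.Agent.Lib.P018
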